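import Vale.Agent.P189.ErgFinal

open Vale.Agent.P189
open MeasureTheory

namespace Vale.Agent.Results.P189.ErgodicCosts

/-- The finitely presented group `⟨a, c, t | [t, c] = [t, a c a⁻²] = 1⟩` has an ergodic essentially
free p.m.p. action of cost exactly `1` and another one of cost at least `1 + 1/216`. -/
theorem result :
    (∃ (X : Type) (_ : MeasurableSpace X) (_ : StandardBorelSpace X) (μ : Measure X)
      (_ : IsProbabilityMeasure μ) (_ : MulAction Gam X),
      IsPmp Gam μ ∧ EssFree Gam μ ∧ ErgodicSMul Gam X μ ∧ Cost Gam μ = 1) ∧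
    (∃ (Y : Type) (_ : MeasurableSpace Y) (_ : StandardBorelSpace Y) (ν : Measure Y)
      (_ : IsProbabilityMeasure ν) (_ : MulAction Gam Y),
      IsPmp Gam ν ∧ EssFree Gam ν ∧ ErgodicSMul Gam Y ν ∧ 1 + 1 / 216 ≤ Cost Gam ν) :=
  gam_ergodic_costs

end Vale.Agent.Results.P189.ErgodicCosts
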