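import Vale.Agent.P189.Main
import Vale.Agent.P189.GroupInst

open Vale.Agent.P189
open MeasureTheory

namespace Vale.Agent.Results.P189.ExplicitCosts

/-- The finitely presented group `⟨a, c, t | [t, c] = [t, a c a⁻²] = 1⟩` has an essentially free
p.m.p. action of cost exactly `1` and another one of cost at least `1 + 1/216`. -/
theorem result :
    (∃ (X : Type) (_ : MeasurableSpace X) (_ : StandardBorelSpace X) (μ : Measure X)
      (_ : IsProbabilityMeasure μ) (_ : MulAction Gam X),
      IsPmp Gam μ ∧ EssFree Gam μ ∧ Cost Gam μ = 1) ∧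
    (∃ (Y : Type) (_ : MeasurableSpace Y) (_ : StandardBorelSpace Y) (ν : Measure Y)
      (_ : IsProbabilityMeasure ν) (_ : MulAction Gam Y),
      IsPmp Gam ν ∧ EssFree Gam ν ∧ 1 + 1 / 216 ≤ Cost Gam ν) := by
  have hτ : Grp.θt gamData.t = Multiplicative.ofAdd 1 := by simp [Grp.θt, gamData]
  haveI := circle_prob
  constructor
  · letI act1 := shiftAction (Γ := Gam)
    exact ⟨(Gam → Bool) × UnitAddCircle × UnitAddCircle, inferInstance, inferInstance,
      circleMeasure (bern Gam), inferInstance, circleAction (X := Gam → Bool) gamData.θ Grp.θt,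
      circle_isPmp shift_isPmp _ _, circle_essFree shift_essFree _ _,
      circle_cost_eq gamData Grp.θt hτ⟩
  · refine ⟨Gam → Bool, inferInstance, inferInstance, bern Gam, inferInstance,
      shiftAction (Γ := Gam), shift_isPmp, shift_essFree, ?_⟩
    have h := bern_cost_ge gamData
    have h2 : (1 : ENNReal) / 216 = (1 / 108) / 2 := by
      rw [← ENNReal.toReal_eq_toReal_iff' (by simp [ENNReal.div_eq_top]) (by simp [ENNReal.div_eq_top])]
      simp only [ENNReal.toReal_div, ENNReal.toReal_one, ENNReal.toReal_ofNat]
      norm_num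
    rw [h2]
    exact h

end Vale.Agent.Results.P189.ExplicitCosts
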