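import Vale.Agent.P189.LitFinal

namespace Vale.Agent.Results.P189.Literal

open MeasureTheory Vale.Agent.P189.Lit

/-- Not every countable group has fixed price: some countable group has two essentially free p.m.p.
actions on standard probability spaces whose costs differ. -/
theorem result :
    (¬ ∀ (Γ : Type) [Group Γ] [Countable Γ], FixedPrice Γ) ∧
    ∃ (Γ : Type) (_ : Group Γ) (_ : Countable Γ)
      (X : Type) (_ : MeasurableSpace X) (_ : StandardBorelSpace X)
      (Y : Type) (_ : MeasurableSpace Y) (_ : StandardBorelSpace Y)
      (μ : Measure X) (ν : Measure Y) (_ : IsProbabilityMeasure μ) (_ : IsProbabilityMeasure ν)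
      (α : PmpAction Γ μ) (β : PmpAction Γ ν),
      α.EssentiallyFree ∧ β.EssentiallyFree ∧ Cost α.R μ ≠ Cost β.R ν :=
  literal_result

end Vale.Agent.Results.P189.Literal
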