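import Vale.Agent.P189.Main
import Vale.Agent.P189.GroupInst

open Vale.Agent.P189

namespace Vale.Agent.Results.P189.NotFixedPrice

/-- There is a countable group, even a finitely presented one, which does not have fixed price. -/
theorem result : ∃ (Γ : Type) (_ : Group Γ),
    Countable Γ ∧ Group.IsFinitelyPresented Γ ∧ ¬ FixedPrice Γ := by
  haveI : Finite gamRels := by unfold gamRels; exact Set.toFinite _
  exact ⟨Gam, inferInstance, inferInstance, inferInstance,
    not_fixedPrice gamData Grp.θt (by simp [Grp.θt, gamData])⟩

end Vale.Agent.Results.P189.NotFixedPrice
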